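import Mathlib
import Vale.Agent.Lib.P171.Defs
import Vale.Agent.Lib.P171.Final

/-! A stable tempered radial pair potential on three-dimensional space, finite at all positive
separations, whose pressure has a point of non-differentiability in the activity. -/

namespace Vale.Agent.Results.P171.PairPotentialTransition

open MeasureTheory Vale.Agent.Lib.P171

theorem result : ∃ φ : ℝ → ℝ, Measurable φ ∧ LocallyBounded φ ∧ Stable φ ∧ Tempered φ ∧
    IntegrableOn (fun r : ℝ => r ^ 2 * φ r) (Set.Ici 1) ∧ HasPhaseTransition φ := main

end Vale.Agent.Results.P171.PairPotentialTransition
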